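import Mathlib

/-!
# P230 helper: a lattice covering by a cube cut through its centre

`a i ≥ 0`, `A = ∑ a i > 0`.  For `x : Fin n → ℝ` and a real `s` put
`phi s = ∑ k, a k * Int.fract (x k - s)`.  Averaging over the points `s = x i` with the weights
`a i` gives an index `i₀` with `phi (x i₀) ≤ A / 2 - (∑ a k ^ 2) / (2 A)`; moving `s` to the left
by `d ≥ 0` increases `phi` by at most `A d`; the grid `ℤ / (2 n)` has a point within `1 / (2 n)`
to the left of `x i₀`, and `A / (2 n) ≤ (∑ a k ^ 2) / (2 A)` by Cauchy-Schwarz.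
-/

open MeasureTheory Set
open scoped ENNReal

namespace Vale.Agent.H62.P230

theorem fract_add_fract_neg_le (d : ℝ) : Int.fract d + Int.fract (-d) ≤ 1 := by
  by_cases h : Int.fract d = 0
  · rw [h, Int.fract_neg_eq_zero.mpr h]
    norm_num
  · rw [Int.fract_neg h]
    linarith

theorem fract_add_le (u d : ℝ) (hd : 0 ≤ d) : Int.fract (u + d) ≤ Int.fract u + d := by
  have h1 : ⌊u⌋ ≤ ⌊u + d⌋ := Int.floor_le_floor (by linarith)
  have h2 : ((⌊u⌋ : ℤ) : ℝ) ≤ ((⌊u + d⌋ : ℤ) : ℝ) := Int.cast_le.mpr h1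
  rw [Int.fract, Int.fract]
  linarith

/-- The double sum over pairs is at most half of A squared minus the sum of the squares. -/
theorem double_sum_le {n : ℕ} (a x : Fin n → ℝ) (ha : ∀ i, 0 ≤ a i) :
    ∑ i, ∑ k, a i * a k * Int.fract (x k - x i)
      ≤ ((∑ i, a i) ^ 2 - ∑ i, a i ^ 2) / 2 := by
  have hswap : ∑ i, ∑ k, a i * a k * Int.fract (x k - x i)
      = ∑ i, ∑ k, a i * a k * Int.fract (x i - x k) := by
    rw [Finset.sum_comm]
    refine Finset.sum_congr rfl (fun i _ => Finset.sum_congr rfl (fun k _ => ?_))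
    ring
  have hterm : ∀ i k : Fin n, a i * a k * Int.fract (x k - x i)
      + a i * a k * Int.fract (x i - x k) ≤ a i * a k - (if i = k then a i * a k else 0) := by
    intro i k
    by_cases hik : i = k
    · subst hik
      simp
    · rw [if_neg hik]
      have h1 := fract_add_fract_neg_le (x k - x i)
      have h2 : -(x k - x i) = x i - x k := by ring
      rw [h2] at h1
      have h3 : 0 ≤ a i * a k := mul_nonneg (ha i) (ha k)
      nlinarith
  have hsum : ∑ i, ∑ k, (a i * a k * Int.fract (x k - x i)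
      + a i * a k * Int.fract (x i - x k))
      ≤ ∑ i, ∑ k, (a i * a k - (if i = k then a i * a k else 0)) :=
    Finset.sum_le_sum (fun i _ => Finset.sum_le_sum (fun k _ => hterm i k))
  have hL : ∑ i, ∑ k, (a i * a k * Int.fract (x k - x i)
      + a i * a k * Int.fract (x i - x k))
      = 2 * ∑ i, ∑ k, a i * a k * Int.fract (x k - x i) := by
    simp only [Finset.sum_add_distrib]
    rw [← hswap]
    ring
  have hR : ∑ i, ∑ k, (a i * a k - (if i = k then a i * a k else 0))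
      = (∑ i, a i) ^ 2 - ∑ i, a i ^ 2 := by
    simp only [Finset.sum_sub_distrib, Finset.sum_ite_eq, Finset.mem_univ, if_true]
    rw [pow_two, Finset.sum_mul_sum]
    congr 1
    refine Finset.sum_congr rfl (fun i _ => ?_)
    ring
  rw [hL, hR] at hsum
  linarith

/-- A good starting point: some `i₀` with `phi (x i₀) ≤ A / 2 - (∑ a ^ 2) / (2 A)`. -/
theorem exists_good_index {n : ℕ} (a x : Fin n → ℝ) (ha : ∀ i, 0 ≤ a i)
    (hA : 0 < ∑ i, a i) :
    ∃ i₀ : Fin n, ∑ k, a k * Int.fract (x k - x i₀)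
      ≤ (∑ i, a i) / 2 - (∑ i, a i ^ 2) / (2 * ∑ i, a i) := by
  by_contra hcon
  push Not at hcon
  have hle : ∀ i ∈ (Finset.univ : Finset (Fin n)),
      a i * ((∑ i, a i) / 2 - (∑ i, a i ^ 2) / (2 * ∑ i, a i))
        ≤ a i * ∑ k, a k * Int.fract (x k - x i) :=
    fun i _ => mul_le_mul_of_nonneg_left (hcon i).le (ha i)
  have hpos : ∃ i ∈ (Finset.univ : Finset (Fin n)), 0 < a i := by
    by_contra hnone
    push Not at hnone
    have h0 : ∑ i, a i ≤ 0 := Finset.sum_nonpos (fun i hi => hnone i hi)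
    linarith
  obtain ⟨i1, hi1, hai1⟩ := hpos
  have hlt := Finset.sum_lt_sum hle ⟨i1, hi1, mul_lt_mul_of_pos_left (hcon i1) hai1⟩
  have hds := double_sum_le a x ha
  have e1 : ∑ i, a i * ∑ k, a k * Int.fract (x k - x i)
      = ∑ i, ∑ k, a i * a k * Int.fract (x k - x i) := by
    refine Finset.sum_congr rfl (fun i _ => ?_)
    rw [Finset.mul_sum]
    refine Finset.sum_congr rfl (fun k _ => ?_)
    ring
  have e2 : ∑ i, a i * ((∑ i, a i) / 2 - (∑ i, a i ^ 2) / (2 * ∑ i, a i))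
      = ((∑ i, a i) ^ 2 - ∑ i, a i ^ 2) / 2 := by
    rw [← Finset.sum_mul]
    field_simp
  rw [e1, e2] at hlt
  linarith

/-- The grid point: some integer `j` with `phi (j / (2 n)) ≤ A / 2`. -/
theorem exists_grid_shift {n : ℕ} (hn : 1 ≤ n) (a x : Fin n → ℝ) (ha : ∀ i, 0 ≤ a i)
    (hA : 0 < ∑ i, a i) :
    ∃ j : ℤ, ∑ k, a k * Int.fract (x k - (j : ℝ) / (2 * (n : ℝ))) ≤ (∑ i, a i) / 2 := by
  obtain ⟨i₀, hi₀⟩ := exists_good_index a x ha hA
  have hn0 : (0 : ℝ) < 2 * (n : ℝ) := by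
    have : (1 : ℝ) ≤ (n : ℝ) := by exact_mod_cast hn
    linarith
  refine ⟨⌊2 * (n : ℝ) * x i₀⌋, ?_⟩
  obtain ⟨s, hs⟩ : ∃ s : ℝ, s = ((⌊2 * (n : ℝ) * x i₀⌋ : ℤ) : ℝ) / (2 * (n : ℝ)) := ⟨_, rfl⟩
  rw [← hs]
  have hfl1 : ((⌊2 * (n : ℝ) * x i₀⌋ : ℤ) : ℝ) ≤ 2 * (n : ℝ) * x i₀ := Int.floor_le _
  have hfl2 : 2 * (n : ℝ) * x i₀ < ((⌊2 * (n : ℝ) * x i₀⌋ : ℤ) : ℝ) + 1 := Int.lt_floor_add_one _
  have hs1 : s ≤ x i₀ := by
    rw [hs, div_le_iff₀ hn0]
    linarith
  have hs2 : x i₀ - s ≤ 1 / (2 * (n : ℝ)) := by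
    have h3 : x i₀ - s = (2 * (n : ℝ) * x i₀ - ((⌊2 * (n : ℝ) * x i₀⌋ : ℤ) : ℝ)) / (2 * (n : ℝ)) := by
      rw [hs]
      field_simp
    rw [h3]
    exact div_le_div_of_nonneg_right (by linarith) hn0.le
  have hlip : ∀ k : Fin n, a k * Int.fract (x k - s)
      ≤ a k * Int.fract (x k - x i₀) + a k * (x i₀ - s) := by
    intro k
    have h4 : x k - s = (x k - x i₀) + (x i₀ - s) := by ring
    have h5 := fract_add_le (x k - x i₀) (x i₀ - s) (by linarith)
    rw [← h4] at h5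
    have h6 := mul_le_mul_of_nonneg_left h5 (ha k)
    linarith
  have hsum : ∑ k, a k * Int.fract (x k - s)
      ≤ ∑ k, a k * Int.fract (x k - x i₀) + (∑ k, a k) * (x i₀ - s) := by
    rw [Finset.sum_mul, ← Finset.sum_add_distrib]
    exact Finset.sum_le_sum (fun k _ => hlip k)
  have hCS : (∑ i, a i) ^ 2 ≤ (n : ℝ) * ∑ i, a i ^ 2 := by
    have h7 := Finset.sum_mul_sq_le_sq_mul_sq (Finset.univ : Finset (Fin n)) a (fun _ => (1 : ℝ))
    simp only [mul_one, one_pow, Finset.sum_const, Finset.card_univ, Fintype.card_fin,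
      nsmul_eq_mul] at h7
    linarith
  have hkey : (∑ k, a k) * (x i₀ - s) ≤ (∑ i, a i ^ 2) / (2 * ∑ i, a i) := by
    have h8 : (∑ k, a k) * (x i₀ - s) ≤ (∑ k, a k) * (1 / (2 * (n : ℝ))) :=
      mul_le_mul_of_nonneg_left hs2 hA.le
    have h9 : (∑ k, a k) * (1 / (2 * (n : ℝ))) ≤ (∑ i, a i ^ 2) / (2 * ∑ i, a i) := by
      rw [mul_one_div, div_le_div_iff₀ hn0 (by linarith)]
      nlinarith
    linarith
  linarith

end Vale.Agent.H62.P230
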