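import Mathlib
import Vale.Agent.H62.P230.CutCube

/-!
# P230 helper: the lattice `ℤⁿ + ℤ (1/(2n)) (1,…,1)` and the cut cube

`latB n p` is the identity matrix with column `p` replaced by the constant vector `1/(2n)`;
its determinant is `1/(2n)` and `latB n p *ᵥ z`, `z ∈ ℤⁿ`, runs through `ℤⁿ + ℤ (1/(2n)) (1,…,1)`.
-/

open MeasureTheory Set
open scoped ENNReal

namespace Vale.Agent.H62.P230

/-- The identity matrix with column `p` replaced by the constant vector `1 / (2 n)`. -/
noncomputable def latB (n : ℕ) (p : Fin n) : Matrix (Fin n) (Fin n) ℝ :=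
  (1 : Matrix (Fin n) (Fin n) ℝ).updateCol p (fun _ => 1 / (2 * (n : ℝ)))

theorem latB_det (n : ℕ) (p : Fin n) : (latB n p).det = 1 / (2 * (n : ℝ)) := by
  unfold latB
  rw [← Matrix.cramer_apply, Matrix.cramer_one]
  rfl

theorem latB_mulVec (n : ℕ) (p : Fin n) (v : Fin n → ℝ) (k : Fin n) :
    (latB n p).mulVec v k = 1 / (2 * (n : ℝ)) * v p + (if k = p then 0 else v k) := by
  unfold latB
  rw [Matrix.mulVec, dotProduct]
  have hterm : ∀ l : Fin n,
      (1 : Matrix (Fin n) (Fin n) ℝ).updateCol p (fun _ => 1 / (2 * (n : ℝ))) k l * v l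
        = (if l = p then 1 / (2 * (n : ℝ)) * v l else 0)
          + (if k = l then (if l = p then 0 else v l) else 0) := by
    intro l
    rw [Matrix.updateCol_apply]
    by_cases hl : l = p
    · simp [hl]
    · simp [hl, Matrix.one_apply]
  simp only [hterm, Finset.sum_add_distrib, Finset.sum_ite_eq, Finset.sum_ite_eq',
    Finset.mem_univ, if_true]

/-- Every point is a point of the cut cube plus a lattice vector. -/
theorem cover_cut_cube {n : ℕ} (hn : 1 ≤ n) (p : Fin n) (a : Fin n → ℝ) (ha : ∀ i, 0 ≤ a i)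
    (hA : 0 < ∑ i, a i) (t : ℝ) (ht : (∑ i, a i) / 2 ≤ t) (x : Fin n → ℝ) :
    ∃ z : Fin n → ℤ, x - (latB n p).mulVec (fun i => (z i : ℝ))
      ∈ Set.Icc (0 : Fin n → ℝ) 1 ∩ {y : Fin n → ℝ | ∑ i, a i * y i ≤ t} := by
  obtain ⟨j, hj⟩ := exists_grid_shift hn a x ha hA
  have hn0 : (0 : ℝ) < 2 * (n : ℝ) := by
    have : (1 : ℝ) ≤ (n : ℝ) := by exact_mod_cast hn
    linarith
  obtain ⟨s, hs⟩ : ∃ s : ℝ, s = (j : ℝ) / (2 * (n : ℝ)) := ⟨_, rfl⟩
  rw [← hs] at hj
  obtain ⟨q, hq⟩ : ∃ q : Fin n → ℤ, ∀ k, q k = ⌊x k - s⌋ := ⟨fun k => ⌊x k - s⌋, fun _ => rfl⟩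
  refine ⟨fun k => if k = p then 2 * (n : ℤ) * q p + j else q k - q p, ?_⟩
  have hcoord : ∀ k : Fin n,
      (x - (latB n p).mulVec (fun i => (((if i = p then 2 * (n : ℤ) * q p + j else q i - q p : ℤ)) : ℝ))) k
        = Int.fract (x k - s) := by
    intro k
    rw [Pi.sub_apply, latB_mulVec]
    simp only [if_true]
    have hfr : Int.fract (x k - s) = x k - s - (q k : ℝ) := by
      rw [hq k]
      rfl
    rw [hfr, hs]
    by_cases hk : k = p
    · subst hk
      simp only [if_true]
      push_cast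
      field_simp
      ring
    · simp only [if_neg hk]
      push_cast
      field_simp
      ring
  constructor
  · rw [Set.mem_Icc]
    constructor
    · intro k
      rw [hcoord k]
      exact Int.fract_nonneg _
    · intro k
      rw [hcoord k]
      exact (Int.fract_lt_one _).le
  · show ∑ i, a i * (x - (latB n p).mulVec (fun i =>
        (((if i = p then 2 * (n : ℤ) * q p + j else q i - q p : ℤ)) : ℝ))) i ≤ t
    simp only [hcoord]
    linarith

end Vale.Agent.H62.P230
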