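import Mathlib
import Vale.Agent.H62.P230.CutCubeLattice

/-!
# P230 helper: the cut cube is a convex body of volume at most one, and the final assembly
-/

open MeasureTheory Set
open scoped ENNReal

namespace Vale.Agent.H62.P230

theorem cutCube_convex {n : ℕ} (a : Fin n → ℝ) (t : ℝ) :
    Convex ℝ (Set.Icc (0 : Fin n → ℝ) 1 ∩ {y : Fin n → ℝ | ∑ i, a i * y i ≤ t}) := by
  refine (convex_Icc 0 1).inter ?_
  intro y hy z hz α β hα hβ hαβ
  have hy' : ∑ i, a i * y i ≤ t := hy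
  have hz' : ∑ i, a i * z i ≤ t := hz
  show ∑ i, a i * (α • y + β • z) i ≤ t
  have hsum : ∑ i, a i * (α • y + β • z) i
      = α * ∑ i, a i * y i + β * ∑ i, a i * z i := by
    rw [Finset.mul_sum, Finset.mul_sum, ← Finset.sum_add_distrib]
    refine Finset.sum_congr rfl (fun i _ => ?_)
    simp only [Pi.add_apply, Pi.smul_apply, smul_eq_mul]
    ring
  rw [hsum]
  have h1 := mul_le_mul_of_nonneg_left hy' hα
  have h2 := mul_le_mul_of_nonneg_left hz' hβ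
  have h3 : α * t + β * t = t := by rw [← add_mul, hαβ, one_mul]
  linarith

theorem cutCube_isCompact {n : ℕ} (a : Fin n → ℝ) (t : ℝ) :
    IsCompact (Set.Icc (0 : Fin n → ℝ) 1 ∩ {y : Fin n → ℝ | ∑ i, a i * y i ≤ t}) := by
  refine isCompact_Icc.inter_right ?_
  exact isClosed_le (continuous_finsetSum _ (fun i _ => continuous_const.mul (continuous_apply i)))
    continuous_const

theorem cutCube_interior {n : ℕ} (a : Fin n → ℝ) (ha : ∀ i, 0 ≤ a i) (t : ℝ)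
    (ht : (∑ i, a i) / 2 ≤ t) :
    (interior (Set.Icc (0 : Fin n → ℝ) 1 ∩ {y : Fin n → ℝ | ∑ i, a i * y i ≤ t})).Nonempty := by
  have hopen : IsOpen (Set.pi Set.univ (fun _ : Fin n => Set.Ioo (0 : ℝ) (1 / 2))) :=
    isOpen_set_pi Set.finite_univ (fun _ _ => isOpen_Ioo)
  have hsub : Set.pi Set.univ (fun _ : Fin n => Set.Ioo (0 : ℝ) (1 / 2))
      ⊆ Set.Icc (0 : Fin n → ℝ) 1 ∩ {y : Fin n → ℝ | ∑ i, a i * y i ≤ t} := by
    intro y hy
    have hy' : ∀ i, 0 < y i ∧ y i < 1 / 2 := fun i => hy i (Set.mem_univ i)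
    refine ⟨⟨fun i => (hy' i).1.le, fun i => by have := (hy' i).2; simp only [Pi.one_apply]; linarith⟩, ?_⟩
    show ∑ i, a i * y i ≤ t
    have h1 : ∑ i, a i * y i ≤ ∑ i, a i * (1 / 2) :=
      Finset.sum_le_sum (fun i _ => mul_le_mul_of_nonneg_left (hy' i).2.le (ha i))
    rw [← Finset.sum_mul] at h1
    linarith
  refine ⟨fun _ => 1 / 4, interior_maximal hsub hopen ?_⟩
  intro i _
  exact ⟨by norm_num, by norm_num⟩

theorem cutCube_volume {n : ℕ} (a : Fin n → ℝ) (t : ℝ) :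
    volume (Set.Icc (0 : Fin n → ℝ) 1 ∩ {y : Fin n → ℝ | ∑ i, a i * y i ≤ t}) ≤ 1 := by
  refine le_trans (measure_mono Set.inter_subset_left) ?_
  rw [Real.volume_Icc_pi]
  simp

/-- The assembled statement. -/
theorem cut_cube_lattice_covering (n : ℕ) (hn : 1 ≤ n) (a : Fin n → ℝ) (ha : ∀ i, 0 ≤ a i)
    (hA : 0 < ∑ i, a i) (t : ℝ) (ht : (∑ i, a i) / 2 ≤ t) (K : Set (Fin n → ℝ))
    (hK : K = Set.Icc (0 : Fin n → ℝ) 1 ∩ {y : Fin n → ℝ | ∑ i, a i * y i ≤ t}) :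
    (Convex ℝ K ∧ IsCompact K ∧ (interior K).Nonempty) ∧
    ∃ B : Matrix (Fin n) (Fin n) ℝ, B.det = 1 / (2 * (n : ℝ)) ∧
      (∀ x : Fin n → ℝ, ∃ z : Fin n → ℤ, x - B.mulVec (fun i => (z i : ℝ)) ∈ K) ∧
      volume K / ENNReal.ofReal |B.det| ≤ 2 * (n : ℝ≥0∞) := by
  subst hK
  refine ⟨⟨cutCube_convex a t, cutCube_isCompact a t, cutCube_interior a ha t ht⟩, ?_⟩
  have hn0 : (0 : ℝ) < 2 * (n : ℝ) := by
    have : (1 : ℝ) ≤ (n : ℝ) := by exact_mod_cast hn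
    linarith
  refine ⟨latB n ⟨0, hn⟩, latB_det n ⟨0, hn⟩, fun x => cover_cut_cube hn ⟨0, hn⟩ a ha hA t ht x, ?_⟩
  have hdet : |(latB n ⟨0, hn⟩).det| = 1 / (2 * (n : ℝ)) := by
    rw [latB_det]
    exact abs_of_pos (by positivity)
  have h1 : ENNReal.ofReal (1 / (2 * (n : ℝ))) = (ENNReal.ofReal (2 * (n : ℝ)))⁻¹ := by
    rw [one_div, ENNReal.ofReal_inv_of_pos hn0]
  have h2 : ENNReal.ofReal (2 * (n : ℝ)) = 2 * (n : ℝ≥0∞) := by
    rw [ENNReal.ofReal_mul (by norm_num)]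
    simp
  rw [hdet, h1, div_eq_mul_inv, inv_inv, h2]
  calc volume (Set.Icc (0 : Fin n → ℝ) 1 ∩ {y : Fin n → ℝ | ∑ i, a i * y i ≤ t})
        * (2 * (n : ℝ≥0∞))
      ≤ 1 * (2 * (n : ℝ≥0∞)) := mul_le_mul_left (cutCube_volume a t) _
    _ = 2 * (n : ℝ≥0∞) := one_mul _

end Vale.Agent.H62.P230
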